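import Vale.Agent.P233.H47.RS4

/-! P233, stage 3 (3b), Theorem N with a density function: the entropy inequality S2 at fixed
times, with the weight `w` (copy of H47/RS4 with the pole weight; helper47, helper883). -/

set_option linter.all false

open MeasureTheory Filter Topology Set
open scoped ENNReal NNReal

universe u

namespace Vale.Agent.P233.H883.EntW

open Vale.Agent.P233.H47

theorem abs_log_le {c x : ℝ} (hc : 0 < c) (h1 : c ≤ x) (h2 : x ≤ c⁻¹) :
    ‖Real.log x‖ ≤ -Real.log c := by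
  have hx : 0 < x := hc.trans_le h1
  rw [Real.norm_eq_abs, abs_le, neg_neg]
  refine ⟨Real.log_le_log hc h1, ?_⟩
  rw [← Real.log_inv]
  exact Real.log_le_log hx h2

section main

variable {M : Type u} [MetricSpace M] [MeasurableSpace M] [BorelSpace M]
  [SecondCountableTopology M] {A : ℝ} {n : ℕ} {a : ℝ → ℝ} {b η τ T : ℝ} {m : Measure M}
  [SigmaFinite m] {γ : Measure (M × M)} [IsProbabilityMeasure γ]

theorem kn_le' (hA : 0 < A) (hτ : 0 < τ) {c : ℝ} (hc : 0 < c) {x : M}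
    (h1 : c ≤ th m A n a b η τ x) (y : M) :
    kn m A n a b η τ x y ≤ c⁻¹ * kb A n a b η τ := by
  unfold kn
  have h2 := kk_le (n := n) (a := a) (b := b) (η := η) hA hτ x y
  have h3 := kk_nonneg (n := n) (a := a) (b := b) (η := η) hA hτ x y
  have h4 : 0 < th m A n a b η τ x := by linarith
  rw [div_le_iff₀ h4]
  have h5 : 0 ≤ c⁻¹ * kb A n a b η τ := mul_nonneg (inv_nonneg.2 hc.le) (h3.trans h2)
  calc kk A n a b η τ x y ≤ kb A n a b η τ := h2
    _ = c⁻¹ * kb A n a b η τ * c := by field_simp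
    _ ≤ _ := mul_le_mul_of_nonneg_left h1 h5

theorem dens_le' (hA : 0 < A) (hτ : 0 < τ) {c : ℝ} (hc : 0 < c)
    (hθ : ∀ᵐ z ∂γ, c ≤ th m A n a b η τ z.1 ∧ th m A n a b η τ z.1 ≤ c⁻¹) (x : M) :
    dens γ (kn m A n a b η τ) x ≤ ENNReal.ofReal (c⁻¹ * kb A n a b η τ) := by
  unfold dens
  calc ∫⁻ z, ENNReal.ofReal (kn m A n a b η τ z.1 x) ∂γ
      ≤ ∫⁻ z, ENNReal.ofReal (c⁻¹ * kb A n a b η τ) ∂γ := by
        refine lintegral_mono_ae ?_
        filter_upwards [hθ] with z hz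
        exact ENNReal.ofReal_le_ofReal (kn_le' hA hτ hc hz.1 x)
    _ = _ := by simp

theorem rt_facts' (hfin : ∀ (x : M) (r : ℝ), m (Metric.ball x r) < ∞) (hA : 0 < A) (hτ : 0 < τ)
    {c : ℝ} (hc : 0 < c) {p : M} {R : ℝ} (hγ1 : ∀ᵐ z ∂γ, z.1 ∈ Metric.ball p R)
    (hθ : ∀ᵐ z ∂γ, c ≤ th m A n a b η τ z.1 ∧ th m A n a b η τ z.1 ≤ c⁻¹) :
    Measurable (rt m A n a b η γ τ) ∧ (∀ x, 0 ≤ rt m A n a b η γ τ x) ∧
    (∀ x, rt m A n a b η γ τ x ≤ c⁻¹ * kb A n a b η τ) ∧
    (∀ x, x ∉ Metric.ball p (R + η) → rt m A n a b η γ τ x = 0) ∧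
    (Lam m γ (kn m A n a b η τ)).map Prod.snd
      = m.withDensity (fun x => ENNReal.ofReal (rt m A n a b η γ τ x)) ∧
    ∫ x, rt m A n a b η γ τ x ∂m = 1 := by
  have hkb : 0 ≤ c⁻¹ * kb A n a b η τ := by unfold kb; positivity
  have h1 : Measurable (rt m A n a b η γ τ) := (meas_dens meas_kn).ennreal_toReal
  have h2 : ∀ x, ENNReal.ofReal (rt m A n a b η γ τ x) = dens γ (kn m A n a b η τ) x := fun x =>
    ENNReal.ofReal_toReal ((dens_le' hA hτ hc hθ x).trans_lt ENNReal.ofReal_lt_top).ne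
  have h3 : (Lam m γ (kn m A n a b η τ)).map Prod.snd
      = m.withDensity (fun x => ENNReal.ofReal (rt m A n a b η γ τ x)) := by
    simp_rw [h2]; exact lam_snd meas_kn
  have hk1 : ∀ᵐ z ∂γ, ∫⁻ x, ENNReal.ofReal (kn m A n a b η τ z.1 x) ∂m = 1 := by
    filter_upwards [hθ] with z hz
    exact kn_mass hfin hA hτ (by linarith [hz.1])
  refine ⟨h1, fun x => ENNReal.toReal_nonneg, fun x => ?_, fun x hx => ?_, h3, ?_⟩
  · exact ENNReal.toReal_le_of_le_ofReal hkb (dens_le' hA hτ hc hθ x)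
  · unfold rt; rw [dens_zero hγ1 hx]; rfl
  · haveI := lam_prob (m := m) (γ := γ) meas_kn hk1
    rw [integral_eq_lintegral_of_nonneg_ae (f := rt m A n a b η γ τ)
      (Eventually.of_forall fun x => ENNReal.toReal_nonneg) h1.aestronglyMeasurable]
    have h4 : ∫⁻ x, ENNReal.ofReal (rt m A n a b η γ τ x) ∂m = 1 := by
      have := congrArg (fun μ : Measure M => μ univ) h3
      simp only [Measure.map_apply measurable_snd MeasurableSet.univ, preimage_univ, measure_univ,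
        withDensity_apply _ MeasurableSet.univ, Measure.restrict_univ] at this
      exact this.symm
    rw [h4]; rfl

/-- `S1` as used in `S2`: the kernel inequality with the potentials at time `T`; weight `1/w` at
the second variable. -/
def S1w (m : Measure M) (w : M → ℝ) (A : ℝ) (n : ℕ) (a : ℝ → ℝ) (b : ℝ) (φ ψ : M → ℝ)
    (T : ℝ) : Prop :=
  ∀ F H : M → ℝ, Measurable F → Measurable H → (∀ x, 0 ≤ F x) → (∀ x, 0 ≤ H x) →
    (∃ C, ∀ x, F x ≤ C) → (∃ C, ∀ x, H x ≤ C) →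
    (∃ (p : M) (R : ℝ), ∀ x, x ∉ Metric.ball p R → F x = 0) →
    (∃ (p : M) (R : ℝ), ∀ x, x ∉ Metric.ball p R → H x = 0) →
    ∫ x, F x ∂m = 1 → ∫ x, H x ∂m = 1 →
    ∫⁻ y, ∫⁻ x, ENNReal.ofReal (Real.exp (φ x / T) * √(F x) * ((w y)⁻¹ * Kf A n a b T x y)
      * (Real.exp (ψ y / T) * √(H y))) ∂m ∂m ≤ 1

/-- **S2** at fixed times `τ`, `T`. -/
theorem S2w (hfin : ∀ (x : M) (r : ℝ), m (Metric.ball x r) < ∞) (hA : 0 < A) (hτ : 0 < τ)
    (hT : 0 < T) {c : ℝ} (hc : 0 < c) {p : M} {R : ℝ} (hγ1 : ∀ᵐ z ∂γ, z.1 ∈ Metric.ball p R)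
    (hθ : ∀ᵐ z ∂γ, c ≤ th m A n a b η τ z.1 ∧ th m A n a b η τ z.1 ≤ c⁻¹)
    {w : M → ℝ} (hwm : Measurable w) (hw0 : ∀ x, 0 < w x)
    (hwc : ∀ x ∈ Metric.ball p R, c ≤ w x ∧ w x ≤ c⁻¹)
    {s : M → ℝ} (hs : Measurable s) (hs0 : ∀ y, 0 ≤ s y) {C : ℝ} (hsC : ∀ y, s y ≤ C)
    (hsR : ∀ y, y ∉ Metric.ball p R → s y = 0)
    (hγ2 : γ.map Prod.snd = m.withDensity fun y => ENNReal.ofReal (s y))
    {φ ψ : M → ℝ} (hφ : Measurable φ) (hψ : Measurable ψ) {D : ℝ} (hφD : ∀ x, |φ x| ≤ D)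
    (hψD : ∀ x, |ψ x| ≤ D) (hS1 : S1w m w A n a b φ ψ T) :
    (1 / 2) * (∫ x, rt m A n a b η γ τ x * Real.log (rt m A n a b η γ τ x) ∂m
        - ∫ y, s y * Real.log (s y) ∂m)
      ≤ T⁻¹ * ∫ z, (dist z.2 z.1.2 ^ 2 / 2 - φ z.2 - ψ z.1.2) ∂(Lam m γ (kn m A n a b η τ))
        + (a T - T⁻¹) * ∫ z, dist z.2 z.1.2 ^ 2 / 2 ∂(Lam m γ (kn m A n a b η τ))
        + b * T - b * τ + (n : ℝ) / 2 * (Real.log T - Real.log τ)
        - a τ * ∫ z, dist z.1.1 z.2 ^ 2 / 2 ∂(Lam m γ (kn m A n a b η τ))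
        - ∫ z, Real.log (th m A n a b η τ z.1.1) ∂(Lam m γ (kn m A n a b η τ))
        + ∫ z, Real.log (w z.1.2) ∂(Lam m γ (kn m A n a b η τ)) := by
  set k := kn m A n a b η τ with hk
  set r := rt m A n a b η γ τ with hr
  set Λ := Lam m γ k with hΛ
  have hF := rt_facts' (n := n) (a := a) (b := b) (η := η) hfin hA hτ hc hγ1 hθ
  rw [← hr, ← hk, ← hΛ] at hF
  obtain ⟨r1, r2, r3, r4, r5, r6⟩ := hF
  have hkm : Measurable (Function.uncurry k) := meas_kn
  have hk0 : ∀ x y, 0 ≤ k x y := kn_nonneg hA hτ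
  have hk1 : ∀ᵐ z ∂γ, ∫⁻ x, ENNReal.ofReal (k z.1 x) ∂m = 1 := by
    filter_upwards [hθ] with z hz
    exact kn_mass hfin hA hτ (by linarith [hz.1])
  haveI : IsProbabilityMeasure Λ := lam_prob hkm hk1
  have hfst : Λ.map Prod.fst = γ := lam_fst hkm hk1
  -- a.e. facts
  have e1 : ∀ᵐ z ∂Λ, 0 < r z.2 := law_pos measurable_snd r1 r5
  have hsnd : Λ.map (fun z => z.1.2) = m.withDensity fun y => ENNReal.ofReal (s y) := by
    rw [← hγ2, ← hfst, Measure.map_map measurable_snd measurable_fst]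
    rfl
  have m12 : Measurable fun z : (M × M) × M => z.1.2 := by fun_prop
  have e2 : ∀ᵐ z ∂Λ, 0 < s z.1.2 := law_pos m12 hs hsnd
  have e3 : ∀ᵐ z ∂Λ, 0 < k z.1.1 z.2 := by
    rw [hΛ]
    unfold Lam
    rw [ae_withDensity_iff (meas_k hkm)]
    exact Eventually.of_forall fun z hz => ENNReal.ofReal_pos.1 (pos_iff_ne_zero.2 hz)
  have e4 : ∀ᵐ z ∂Λ, z.1.1 ∈ Metric.ball p R ∧ c ≤ th m A n a b η τ z.1.1 ∧
      th m A n a b η τ z.1.1 ≤ c⁻¹ := by
    have : ∀ᵐ z ∂(Λ.map Prod.fst), z.1 ∈ Metric.ball p R ∧ c ≤ th m A n a b η τ z.1 ∧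
        th m A n a b η τ z.1 ≤ c⁻¹ := by
      rw [hfst]
      filter_upwards [hγ1, hθ] with z h1 h2
      exact ⟨h1, h2⟩
    exact ae_of_ae_map measurable_fst.aemeasurable this
  have e5 : ∀ᵐ z ∂Λ, dist z.1.1 z.2 < η := by
    filter_upwards [e3] with z hz
    by_contra h
    have : k z.1.1 z.2 = 0 := by
      rw [hk]; unfold kn; rw [kk_zero (not_lt.1 h), zero_div]
    exact hz.ne' this
  have e6 : ∀ᵐ z ∂Λ, z.1.2 ∈ Metric.ball p R := by
    filter_upwards [e2] with z hz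
    by_contra h
    exact hz.ne' (hsR _ h)
  have e7 : ∀ᵐ z ∂Λ, dist z.2 z.1.2 ≤ 2 * |R| + |η| := by
    filter_upwards [e4, e5, e6] with z h4 h5 h6
    rw [Metric.mem_ball] at h6
    have h4' := Metric.mem_ball.1 h4.1
    have t1 := dist_triangle z.2 z.1.1 z.1.2
    have t2 := dist_triangle z.1.1 p z.1.2
    rw [dist_comm z.2 z.1.1] at t1
    rw [dist_comm p z.1.2] at t2
    have := le_abs_self R
    have := le_abs_self η
    linarith
  -- integrability
  have i1 : Integrable (fun z : (M × M) × M => dist z.2 z.1.2 ^ 2 / 2) Λ := by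
    refine Integrable.of_bound (by fun_prop) ((2 * |R| + |η|) ^ 2 / 2) ?_
    filter_upwards [e7] with z hz
    rw [Real.norm_of_nonneg (by positivity)]
    have : 0 ≤ dist z.2 z.1.2 := dist_nonneg
    gcongr
  have i2 : Integrable (fun z : (M × M) × M => φ z.2) Λ :=
    Integrable.of_bound (hφ.comp measurable_snd).aestronglyMeasurable D
      (Eventually.of_forall fun z => hφD _)
  have i3 : Integrable (fun z : (M × M) × M => ψ z.1.2) Λ :=
    Integrable.of_bound (hψ.comp m12).aestronglyMeasurable D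
      (Eventually.of_forall fun z => hψD _)
  have i4 : Integrable (fun z : (M × M) × M => dist z.1.1 z.2 ^ 2 / 2) Λ := by
    refine Integrable.of_bound (by fun_prop) (η ^ 2 / 2) ?_
    filter_upwards [e5] with z hz
    rw [Real.norm_of_nonneg (by positivity)]
    have : 0 ≤ dist z.1.1 z.2 := dist_nonneg
    gcongr
  have mth : Measurable fun z : (M × M) × M => th m A n a b η τ z.1.1 :=
    meas_th.comp (by fun_prop)
  have i5 : Integrable (fun z : (M × M) × M => Real.log (th m A n a b η τ z.1.1)) Λ := by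
    refine Integrable.of_bound mth.log.aestronglyMeasurable (-Real.log c) ?_
    filter_upwards [e4] with z hz
    exact abs_log_le hc hz.2.1 hz.2.2
  have i8 : Integrable (fun z : (M × M) × M => Real.log (w z.1.2)) Λ := by
    refine Integrable.of_bound (hwm.comp m12).log.aestronglyMeasurable (-Real.log c) ?_
    filter_upwards [e6] with z hz
    exact abs_log_le hc (hwc _ hz).1 (hwc _ hz).2
  obtain ⟨i6, j6⟩ := law_log (Λ := Λ) measurable_snd r1 r2 r5
    (ent_int r1 r2 r3 Metric.isOpen_ball.measurableSet (hfin p (R + η)) r4)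
  obtain ⟨i7, j7⟩ := law_log (Λ := Λ) m12 hs hs0 hsnd
    (ent_int hs hs0 hsC Metric.isOpen_ball.measurableSet (hfin p R) hsR)
  -- the function `W`
  set W : M → M → ℝ := fun x y => Real.exp (φ x / T) * √(r x) * ((w y)⁻¹ * Kf A n a b T x y)
      * (Real.exp (ψ y / T) * √(s y)) with hW
  have hWm : Measurable (Function.uncurry W) := by
    have hK : Measurable (Function.uncurry (Kf (M := M) A n a b T)) := meas_Kf
    have a1 : Measurable fun q : M × M => Real.exp (φ q.1 / T) * √(r q.1) :=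
      ((hφ.comp measurable_fst).div_const _).exp.mul (r1.comp measurable_fst).sqrt
    have a2 : Measurable fun q : M × M => Real.exp (ψ q.2 / T) * √(s q.2) :=
      ((hψ.comp measurable_snd).div_const _).exp.mul (hs.comp measurable_snd).sqrt
    have a3 : Measurable fun q : M × M => (w q.2)⁻¹ := (hwm.comp measurable_snd).inv
    exact (a1.mul (a3.mul hK)).mul a2
  have hs1 : ∫ y, s y ∂m = 1 := by
    rw [integral_eq_lintegral_of_nonneg_ae (Eventually.of_forall hs0) hs.aestronglyMeasurable]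
    have h4 : ∫⁻ y, ENNReal.ofReal (s y) ∂m = 1 := by
      have := congrArg (fun μ : Measure M => μ univ) hγ2
      simp only [Measure.map_apply measurable_snd MeasurableSet.univ, preimage_univ, measure_univ,
        withDensity_apply _ MeasurableSet.univ, Measure.restrict_univ] at this
      exact this.symm
    rw [h4]; rfl
  have hW1 : ∫⁻ y, ∫⁻ x, ENNReal.ofReal (W x y) ∂m ∂m ≤ 1 :=
    hS1 r s r1 hs r2 hs0 ⟨_, r3⟩ ⟨_, hsC⟩ ⟨p, R + η, r4⟩ ⟨p, R, hsR⟩ r6 hs1
  have hpos : ∀ᵐ z ∂Λ, 0 < W z.2 z.1.2 ∧ 0 < k z.1.1 z.2 ∧ 0 < s z.1.2 := by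
    filter_upwards [e1, e2, e3] with z h1 h2 h3
    refine ⟨?_, h3, h2⟩
    simp only [hW]
    have h4 := Kf_pos (n := n) (a := a) (b := b) hA hT z.2 z.1.2
    have h7 := hw0 z.1.2
    have h5 := Real.sqrt_pos.2 h1
    have h6 := Real.sqrt_pos.2 h2
    positivity
  have key : ∀ᵐ z ∂Λ, Real.log (W z.2 z.1.2) - Real.log (k z.1.1 z.2) - Real.log (s z.1.2)
      = (1 / 2) * Real.log (r z.2) - (1 / 2) * Real.log (s z.1.2)
        - T⁻¹ * (dist z.2 z.1.2 ^ 2 / 2 - φ z.2 - ψ z.1.2)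
        - (a T - T⁻¹) * (dist z.2 z.1.2 ^ 2 / 2)
        + (b * τ - b * T - (n : ℝ) / 2 * (Real.log T - Real.log τ))
        + a τ * (dist z.1.1 z.2 ^ 2 / 2) + Real.log (th m A n a b η τ z.1.1)
        - Real.log (w z.1.2) := by
    filter_upwards [e1, e2, e3, e4, e5] with z h1 h2 h3 h4 h5
    have h6 := Kf_pos (n := n) (a := a) (b := b) hA hT z.2 z.1.2
    have h7 := Kf_pos (n := n) (a := a) (b := b) hA hτ z.1.1 z.2
    have h8 := hw0 z.1.2
    have l1 : Real.log (W z.2 z.1.2) = φ z.2 / T + (1 / 2) * Real.log (r z.2)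
        + (-Real.log (w z.1.2) + Real.log (Kf A n a b T z.2 z.1.2)) + ψ z.1.2 / T
        + (1 / 2) * Real.log (s z.1.2) := by
      simp only [hW]
      rw [Real.log_mul (by positivity) (by positivity), Real.log_mul (by positivity)
        (by positivity : (w z.1.2)⁻¹ * Kf A n a b T z.2 z.1.2 ≠ 0),
        Real.log_mul (by positivity : (w z.1.2)⁻¹ ≠ 0) h6.ne', Real.log_inv,
        Real.log_mul (Real.exp_ne_zero _) (by positivity), Real.log_mul (Real.exp_ne_zero _)
        (by positivity), Real.log_exp, Real.log_exp, Real.log_sqrt h1.le, Real.log_sqrt h2.le]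
      ring
    have l2 : Real.log (k z.1.1 z.2) = Real.log (Kf A n a b τ z.1.1 z.2)
        - Real.log (th m A n a b η τ z.1.1) := by
      rw [hk]
      unfold kn kk
      rw [if_pos h5, Real.log_div h7.ne' (by linarith [h4.2.1])]
    rw [l1, l2, log_Kf hA hT, log_Kf hA hτ]
    field_simp
    ring
  have hint : Integrable (fun z => (1 / 2) * Real.log (r z.2) - (1 / 2) * Real.log (s z.1.2)
        - T⁻¹ * (dist z.2 z.1.2 ^ 2 / 2 - φ z.2 - ψ z.1.2)
        - (a T - T⁻¹) * (dist z.2 z.1.2 ^ 2 / 2)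
        + (b * τ - b * T - (n : ℝ) / 2 * (Real.log T - Real.log τ))
        + a τ * (dist z.1.1 z.2 ^ 2 / 2) + Real.log (th m A n a b η τ z.1.1)
        - Real.log (w z.1.2)) Λ :=
    (((((((i6.const_mul _).sub (i7.const_mul _)).sub (((i1.sub i2).sub i3).const_mul _)).sub
      (i1.const_mul _)).add (integrable_const _)).add (i4.const_mul _)).add i5).sub i8
  have hJ := jensen hkm hk0 hk1 hs hs0 hγ2 hWm hW1 hpos (hint.congr (by
    filter_upwards [key] with z hz using hz.symm))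
  rw [integral_congr_ae key] at hJ
  rw [integral_sub (by exact ((((((i6.const_mul _).sub (i7.const_mul _)).sub (((i1.sub i2).sub i3).const_mul _)).sub (i1.const_mul _)).add (integrable_const _)).add (i4.const_mul _)).add i5) i8,
    integral_add (by exact (((((i6.const_mul _).sub (i7.const_mul _)).sub (((i1.sub i2).sub i3).const_mul _)).sub (i1.const_mul _)).add (integrable_const _)).add (i4.const_mul _)) i5,
    integral_add (by exact ((((i6.const_mul _).sub (i7.const_mul _)).sub (((i1.sub i2).sub i3).const_mul _)).sub (i1.const_mul _)).add (integrable_const _)) (i4.const_mul _),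
    integral_add (by exact (((i6.const_mul _).sub (i7.const_mul _)).sub (((i1.sub i2).sub i3).const_mul _)).sub (i1.const_mul _)) (integrable_const _),
    integral_sub (by exact ((i6.const_mul _).sub (i7.const_mul _)).sub (((i1.sub i2).sub i3).const_mul _)) (i1.const_mul _),
    integral_sub (by exact (i6.const_mul _).sub (i7.const_mul _)) (by exact ((i1.sub i2).sub i3).const_mul _),
    integral_sub (i6.const_mul _) (i7.const_mul _)] at hJ
  simp only [integral_const_mul, integral_const, probReal_univ, one_smul, j6, j7] at hJ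
  linarith

end main

end Vale.Agent.P233.H883.EntW
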