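import Vale.Agent.P233.H47.RS6
import Vale.Agent.P233.H883.EntW4

/-! P233, stage 3 (3b), Theorem N with a density function: the limit (copy of H47/RS6 with the
pole weight; helper47, helper883). -/

set_option linter.all false

open MeasureTheory Filter Topology Set
open scoped ENNReal NNReal

universe u

namespace Vale.Agent.P233.H883.EntW

open Vale.Agent.P233.H47

section lim

variable {M : Type u} [MetricSpace M] [ProperSpace M] [MeasurableSpace M] [BorelSpace M]
  {A : ℝ} {n : ℕ} {a : ℝ → ℝ} {b η K lam : ℝ} {m : Measure M}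
  [SigmaFinite m] {γ : Measure (M × M)} [IsProbabilityMeasure γ]

/-- the data along the sequence `τ j → 0` for one side of the plan `γ` -/
structure SideW (m : Measure M) (w : M → ℝ) (A : ℝ) (n : ℕ) (a : ℝ → ℝ) (b η : ℝ)
    (γ : Measure (M × M)) (τ : ℕ → ℝ) (φ ψ : M → ℝ) (a1 : ℝ) : Prop where
  /-- the masses tend to `w` uniformly -/
  mass : ∀ ε > 0, ∀ᶠ j in atTop, ∀ᵐ z ∂γ, |(w z.1)⁻¹ * th m A n a b η (τ j) z.1 - 1| ≤ ε
  /-- the second moments tend to `n/2` uniformly -/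
  mom : ∀ ε > 0, ∀ᶠ j in atTop, ∀ᵐ z ∂γ,
    |(τ j)⁻¹ * ((w z.1)⁻¹ * ∫ x, kk A n a b η (τ j) z.1 x * (dist z.1 x ^ 2 / 2) ∂m) - n / 2| ≤ ε
  /-- kernel inequality (Cheeger-Yau and Davies) -/
  s1 : ∀ᶠ T in 𝓝[>] (0 : ℝ), S1w m w A n a b φ ψ T
  /-- drift -/
  s4 : ∀ ε > 0, ∀ᶠ j in atTop,
    ∫ z, ∫ x, kn m A n a b η (τ j) z.1 x * (dist x z.2 ^ 2 / 2 - φ x - ψ z.2) ∂m ∂γ
      ≤ τ j * (a1 / 2 + ε)

/-- facts for one good `τ` -/
theorem good' (hfin : ∀ (x : M) (r : ℝ), m (Metric.ball x r) < ∞) (hA : 0 < A) {τ : ℝ}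
    (hτ : 0 < τ) {c : ℝ} (hc : 0 < c)
    (hθ : ∀ᵐ z ∂γ, c ≤ th m A n a b η τ z.1 ∧ th m A n a b η τ z.1 ≤ c⁻¹) :
    IsProbabilityMeasure (Lam m γ (kn m A n a b η τ)) ∧
    (Lam m γ (kn m A n a b η τ)).map Prod.fst = γ ∧
    ∀ᵐ z ∂(Lam m γ (kn m A n a b η τ)), dist z.1.1 z.2 < η := by
  have hkm : Measurable (Function.uncurry (kn (M := M) m A n a b η τ)) := meas_kn
  have hk1 : ∀ᵐ z ∂γ, ∫⁻ x, ENNReal.ofReal (kn m A n a b η τ z.1 x) ∂m = 1 := by
    filter_upwards [hθ] with z hz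
    exact kn_mass hfin hA hτ (by linarith [hz.1])
  refine ⟨lam_prob hkm hk1, lam_fst hkm hk1, ?_⟩
  have e3 : ∀ᵐ z ∂(Lam m γ (kn m A n a b η τ)), 0 < kn m A n a b η τ z.1.1 z.2 := by
    unfold Lam
    rw [ae_withDensity_iff (meas_k hkm)]
    exact Eventually.of_forall fun z hz => ENNReal.ofReal_pos.1 (pos_iff_ne_zero.2 hz)
  filter_upwards [e3] with z hz
  by_contra h
  have : kn m A n a b η τ z.1.1 z.2 = 0 := by
    unfold kn; rw [kk_zero (not_lt.1 h), zero_div]
  exact hz.ne' this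

theorem int_G' (hfin : ∀ (x : M) (r : ℝ), m (Metric.ball x r) < ∞) (hA : 0 < A) {τ : ℝ}
    (hτ : 0 < τ) {c : ℝ} (hc : 0 < c)
    (hθ : ∀ᵐ z ∂γ, c ≤ th m A n a b η τ z.1 ∧ th m A n a b η τ z.1 ≤ c⁻¹) :
    Integrable (fun z : (M × M) × M => dist z.1.1 z.2 ^ 2 / 2)
      (Lam m γ (kn m A n a b η τ)) := by
  obtain ⟨h1, h2, h3⟩ := good' hfin hA hτ hc hθ
  refine Integrable.of_bound (by fun_prop) (η ^ 2 / 2) ?_
  filter_upwards [h3] with z hz
  rw [Real.norm_of_nonneg (by positivity)]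
  have : 0 ≤ dist z.1.1 z.2 := dist_nonneg
  gcongr

theorem th_bd {w : M → ℝ} (hw0 : ∀ x, 0 < w x) {c : ℝ} (hc : 0 < c) {τ : ℝ}
    (hwγ : ∀ᵐ z ∂γ, c ≤ w z.1 ∧ w z.1 ≤ c⁻¹)
    (h : ∀ᵐ z ∂γ, |(w z.1)⁻¹ * th m A n a b η τ z.1 - 1| ≤ 1 / 2) :
    ∀ᵐ z ∂γ, c / 2 ≤ th m A n a b η τ z.1 ∧ th m A n a b η τ z.1 ≤ (c / 2)⁻¹ := by
  filter_upwards [hwγ, h] with z z1 z2
  have h0 := hw0 z.1
  have h1 := abs_le.1 z2
  set t := (w z.1)⁻¹ * th m A n a b η τ z.1 with ht
  have e : th m A n a b η τ z.1 = w z.1 * t := by rw [ht]; field_simp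
  rw [e]
  constructor
  · have : 1 / 2 ≤ t := by linarith [h1.1]
    nlinarith
  · have : t ≤ 2 := by linarith [h1.2]
    calc w z.1 * t ≤ w z.1 * 2 := mul_le_mul_of_nonneg_left this h0.le
      _ ≤ c⁻¹ * 2 := mul_le_mul_of_nonneg_right z1.2 (by norm_num)
      _ = (c / 2)⁻¹ := by rw [inv_div]; ring

theorem lim_G' (hfin : ∀ (x : M) (r : ℝ), m (Metric.ball x r) < ∞) (hA : 0 < A)
    {w : M → ℝ} (hwm : Measurable w) (hw0 : ∀ x, 0 < w x) {c : ℝ} (hc : 0 < c)
    (hwγ : ∀ᵐ z ∂γ, c ≤ w z.1 ∧ w z.1 ≤ c⁻¹)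
    {φ ψ : M → ℝ} {τ : ℕ → ℝ} (hτ0 : ∀ j, 0 < τ j) {a1 : ℝ}
    (hS : SideW m w A n a b η γ τ φ ψ a1) :
    Tendsto (fun j => (τ j)⁻¹ * Gj m A n a b η γ (τ j)) atTop (𝓝 (n / 2)) := by
  rw [Metric.tendsto_atTop']
  intro ε hε
  set ε1 : ℝ := min (1 / 2) (ε / (4 * (1 + n / 2))) with hε1
  have hn : (0 : ℝ) ≤ n := Nat.cast_nonneg n
  have hε10 : 0 < ε1 := by positivity
  have hε1a : ε1 ≤ 1 / 2 := min_le_left _ _
  have hε1b : ε1 * (4 * (1 + n / 2)) ≤ ε := by
    have := min_le_right (1 / 2 : ℝ) (ε / (4 * (1 + n / 2)))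
    rwa [← hε1, le_div_iff₀ (by positivity)] at this
  obtain ⟨N, hN⟩ := eventually_atTop.1 ((hS.mass ε1 hε10).and (hS.mom ε1 hε10))
  refine ⟨N, fun j hj => ?_⟩
  obtain ⟨h1, h2⟩ := hN j hj.le
  have hθ := th_bd (m := m) (A := A) (n := n) (a := a) (b := b) (η := η) (τ := τ j) hw0 hc hwγ
    (by filter_upwards [h1] with z hz using hz.trans hε1a)
  have hc2 : 0 < c / 2 := by positivity
  have e1 : Gj m A n a b η γ (τ j) = ∫ z, ∫ x, kn m A n a b η (τ j) z.1 x
      * (dist z.1 x ^ 2 / 2) ∂m ∂γ :=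
    int_lam meas_kn (kn_nonneg hA (hτ0 j)) (int_G' hfin hA (hτ0 j) hc2 hθ)
  set q : M → ℝ := fun x' => (τ j)⁻¹ * ((w x')⁻¹
    * ∫ x, kk A n a b η (τ j) x' x * (dist x' x ^ 2 / 2) ∂m) with hq
  have hqm : Measurable q := by
    have h : Measurable fun z : M × M => kk A n a b η (τ j) z.1 z.2 * (dist z.1 z.2 ^ 2 / 2) :=
      (meas_kk (M := M) (A := A) (n := n) (a := a) (b := b) (η := η) (s := τ j)).mul (by fun_prop)
    exact (hwm.inv.mul h.stronglyMeasurable.integral_prod_right'.measurable).const_mul _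
  set t : M → ℝ := fun x' => (w x')⁻¹ * th m A n a b η (τ j) x' with ht
  have htm : Measurable t := hwm.inv.mul meas_th
  have e2 : (τ j)⁻¹ * Gj m A n a b η γ (τ j) = ∫ z, (t z.1)⁻¹ * q z.1 ∂γ := by
    rw [e1, ← integral_const_mul]
    congr 1
    ext z
    simp only [hq, ht, kn]
    have : ∀ x, kk A n a b η (τ j) z.1 x / th m A n a b η (τ j) z.1 * (dist z.1 x ^ 2 / 2)
        = (th m A n a b η (τ j) z.1)⁻¹ * (kk A n a b η (τ j) z.1 x * (dist z.1 x ^ 2 / 2)) := by
      intro x; ring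
    simp_rw [this]
    rw [integral_const_mul, mul_inv, inv_inv]
    have hw := (hw0 z.1).ne'
    field_simp
  have hb : ∀ᵐ z ∂γ, ‖(t z.1)⁻¹ * q z.1 - n / 2‖ ≤ ε / 2 := by
    filter_upwards [h1, h2] with z z1 z2
    have z3 := abs_le.1 (z1.trans hε1a)
    have hp : 0 < t z.1 := by
      have := z3.1
      simp only [ht]
      linarith
    have : (t z.1)⁻¹ * q z.1 - n / 2
        = (t z.1)⁻¹ * ((q z.1 - n / 2) - (t z.1 - 1) * (n / 2)) := by
      field_simp; ring
    rw [this, norm_mul, Real.norm_of_nonneg (inv_nonneg.2 hp.le), Real.norm_eq_abs]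
    have i1 : (t z.1)⁻¹ ≤ 2 := by
      rw [inv_le_comm₀ hp (by norm_num)]
      have := z3.1
      simp only [ht]
      linarith
    have i2 : |(q z.1 - n / 2) - (t z.1 - 1) * (n / 2)| ≤ ε1 + ε1 * (n / 2) := by
      refine (abs_sub _ _).trans (add_le_add z2 ?_)
      rw [abs_mul, abs_of_nonneg (by positivity : (0 : ℝ) ≤ (n : ℝ) / 2)]
      exact mul_le_mul_of_nonneg_right z1 (by positivity)
    calc (t z.1)⁻¹ * |(q z.1 - n / 2) - (t z.1 - 1) * (n / 2)|
        ≤ 2 * (ε1 + ε1 * (n / 2)) := mul_le_mul i1 i2 (abs_nonneg _) (by norm_num)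
      _ ≤ ε / 2 := by linarith
  have hi : Integrable (fun z : M × M => (t z.1)⁻¹ * q z.1) γ := by
    refine Integrable.of_bound ?_ (ε / 2 + n / 2) ?_
    · exact ((htm.comp measurable_fst).inv.mul (hqm.comp measurable_fst)).aestronglyMeasurable
    · filter_upwards [hb] with z hz
      have h3 := norm_sub_norm_le ((t z.1)⁻¹ * q z.1) (n / 2 : ℝ)
      rw [Real.norm_of_nonneg (by positivity : (0 : ℝ) ≤ (n : ℝ) / 2)] at h3
      linarith
  rw [e2, Real.dist_eq]
  have e3 : ∫ z, (t z.1)⁻¹ * q z.1 ∂γ - n / 2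
      = ∫ z, ((t z.1)⁻¹ * q z.1 - n / 2) ∂γ := by
    rw [integral_sub hi (integrable_const _)]; simp
  rw [e3, ← Real.norm_eq_abs]
  have := norm_integral_le_of_norm_le_const hb
  simp only [probReal_univ, mul_one] at this
  linarith

/-- **one-sided inequality** (S2 + S3). -/
theorem onesideW (hfin : ∀ (x : M) (r : ℝ), m (Metric.ball x r) < ∞) (hA : 0 < A) (hη : 0 < η)
    (ha : Tendsto (fun s => a s - 1 / s) (𝓝[>] 0) (𝓝 (-K / 6)))
    {p : M} {R : ℝ} {w : M → ℝ} (hwm : Measurable w) (hw0 : ∀ x, 0 < w x) {c : ℝ} (hc : 0 < c)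
    (hwc : ∀ x ∈ Metric.ball p R, c ≤ w x ∧ w x ≤ c⁻¹)
    {r s : M → ℝ} (hr : Measurable r) (hr0 : ∀ y, 0 ≤ r y) {C : ℝ} (hrC : ∀ y, r y ≤ C)
    (hrR : ∀ y, y ∉ Metric.ball p R → r y = 0)
    (hγ1 : γ.map Prod.fst = m.withDensity fun y => ENNReal.ofReal (r y))
    (hs : Measurable s) (hs0 : ∀ y, 0 ≤ s y) (hsC : ∀ y, s y ≤ C)
    (hsR : ∀ y, y ∉ Metric.ball p R → s y = 0)
    (hγ2 : γ.map Prod.snd = m.withDensity fun y => ENNReal.ofReal (s y))
    {φ ψ : M → ℝ} (hφ : Measurable φ) (hψ : Measurable ψ) {D : ℝ} (hφD : ∀ x, |φ x| ≤ D)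
    (hψD : ∀ x, |ψ x| ≤ D) {τ : ℕ → ℝ} (hτ0 : ∀ j, 0 < τ j) (hτ : Tendsto τ atTop (𝓝 0))
    {a1 : ℝ} (hS : SideW m w A n a b η γ τ φ ψ a1) (hlam : 0 < lam) :
    (1 / 2) * (∫ x, r x * Real.log (r x) ∂m - ∫ y, s y * Real.log (s y) ∂m)
      ≤ -((n : ℝ) / 2) * Real.log lam - n / 2 + lam * a1 / 2
        - K / 6 * ∫ z, dist z.1 z.2 ^ 2 / 2 ∂γ
        + (∫ z, Real.log (w z.2) ∂γ - ∫ z, Real.log (w z.1) ∂γ) := by
  have hball1 : ∀ᵐ z ∂γ, z.1 ∈ Metric.ball p R := by
    filter_upwards [law_pos measurable_fst hr hγ1] with z hz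
    by_contra h
    exact hz.ne' (hrR _ h)
  have hball2 : ∀ᵐ z ∂γ, z.2 ∈ Metric.ball p R := by
    filter_upwards [law_pos measurable_snd hs hγ2] with z hz
    by_contra h
    exact hz.ne' (hsR _ h)
  have hτ' : Tendsto τ atTop (𝓝[>] 0) :=
    tendsto_nhdsWithin_iff.2 ⟨hτ, Eventually.of_forall fun j => hτ0 j⟩
  have hwγ : ∀ᵐ z ∂γ, c ≤ w z.1 ∧ w z.1 ≤ c⁻¹ := by
    filter_upwards [hball1] with z hz using hwc _ hz
  have hwγ2 : ∀ᵐ z ∂γ, c ≤ w z.2 ∧ w z.2 ≤ c⁻¹ := by
    filter_upwards [hball2] with z hz using hwc _ hz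
  have hc2 : 0 < c / 2 := by positivity
  have hgood : ∀ᶠ j in atTop, ∀ᵐ z ∂γ, c / 2 ≤ th m A n a b η (τ j) z.1 ∧
      th m A n a b η (τ j) z.1 ≤ (c / 2)⁻¹ := by
    filter_upwards [hS.mass (1 / 2) (by norm_num)] with j hj
    exact th_bd hw0 hc hwγ hj
  -- (c1) - (c3)
  have c1 := lim_G' hfin hA hwm hw0 hc hwγ hτ0 hS
  have c3 : Tendsto (fun j => Gj m A n a b η γ (τ j)) atTop (𝓝 0) := by
    have h := hτ.mul c1
    rw [zero_mul] at h
    refine h.congr fun j => ?_
    have := (hτ0 j).ne'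
    field_simp
  have ha' : Tendsto (fun j => a (τ j) - 1 / τ j) atTop (𝓝 (-K / 6)) := ha.comp hτ'
  have c2 : Tendsto (fun j => a (τ j) * Gj m A n a b η γ (τ j)) atTop (𝓝 (n / 2)) := by
    have h := (ha'.mul c3).add c1
    rw [mul_zero, zero_add] at h
    refine h.congr fun j => ?_
    have := (hτ0 j).ne'
    field_simp
    ring
  -- (c4)
  have c4 : Tendsto (fun j => ∫ z, Real.log (th m A n a b η (τ j) z.1.1)
      ∂(Lam m γ (kn m A n a b η (τ j)))) atTop (𝓝 (∫ z, Real.log (w z.1) ∂γ)) := by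
    rw [Metric.tendsto_atTop']
    intro ε hε
    obtain ⟨N, hN⟩ := eventually_atTop.1 ((hS.mass (min (1 / 2) (ε / 4)) (by positivity)))
    refine ⟨N, fun j hj => ?_⟩
    have h1 := hN j hj.le
    have hθ := th_bd (m := m) (A := A) (n := n) (a := a) (b := b) (η := η) (τ := τ j) hw0 hc hwγ
      (by filter_upwards [h1] with z hz using hz.trans (min_le_left _ _))
    obtain ⟨g1, g2, g3⟩ := good' hfin hA (hτ0 j) hc2 hθ
    have m1 : Measurable fun z : M × M => Real.log (th m A n a b η (τ j) z.1) :=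
      (meas_th.comp measurable_fst).log
    have m2 : Measurable fun z : M × M => Real.log (w z.1) := (hwm.comp measurable_fst).log
    have e0 : ∫ z, Real.log (th m A n a b η (τ j) z.1.1) ∂(Lam m γ (kn m A n a b η (τ j)))
        = ∫ z, Real.log (th m A n a b η (τ j) z.1) ∂γ := by
      conv_rhs => rw [← g2]
      rw [integral_map measurable_fst.aemeasurable m1.aestronglyMeasurable]
    have i1 : Integrable (fun z : M × M => Real.log (th m A n a b η (τ j) z.1)) γ := by
      refine Integrable.of_bound m1.aestronglyMeasurable (-Real.log (c / 2)) ?_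
      filter_upwards [hθ] with z hz using abs_log_le hc2 hz.1 hz.2
    have i2 : Integrable (fun z : M × M => Real.log (w z.1)) γ := by
      refine Integrable.of_bound m2.aestronglyMeasurable (-Real.log c) ?_
      filter_upwards [hwγ] with z hz using abs_log_le hc hz.1 hz.2
    rw [e0, Real.dist_eq, ← integral_sub i1 i2, ← Real.norm_eq_abs]
    have h2 : ∀ᵐ z ∂γ, ‖Real.log (th m A n a b η (τ j) z.1) - Real.log (w z.1)‖ ≤ ε / 2 := by
      filter_upwards [h1, hθ] with z z1 z2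
      have hw := hw0 z.1
      have hp0 : 0 < th m A n a b η (τ j) z.1 := by linarith [z2.1]
      set t := (w z.1)⁻¹ * th m A n a b η (τ j) z.1 with ht
      have z3 : |t - 1| ≤ ε / 4 := z1.trans (min_le_right _ _)
      have z5 : |t - 1| ≤ 1 / 2 := z1.trans (min_le_left _ _)
      have z4 := abs_le.1 z3
      have z6 := abs_le.1 z5
      have hp : 0 < t := by rw [ht]; positivity
      have e : Real.log (th m A n a b η (τ j) z.1) - Real.log (w z.1) = Real.log t := by
        rw [ht, Real.log_mul (inv_pos.2 hw).ne' hp0.ne', Real.log_inv]; ring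
      rw [e, Real.norm_eq_abs, abs_le]
      constructor
      · have h5 := Real.log_le_sub_one_of_pos (inv_pos.2 hp)
        rw [Real.log_inv] at h5
        have h6 : t⁻¹ - 1 = t⁻¹ * (1 - t) := by
          field_simp
        have i1 : t⁻¹ ≤ 2 := by
          rw [inv_le_comm₀ hp (by norm_num)]; linarith [z6.1]
        have i0 : 0 < t⁻¹ := inv_pos.2 hp
        have h7 : t⁻¹ * (1 - t) ≤ 2 * (ε / 4) := by
          calc t⁻¹ * (1 - t)
              ≤ t⁻¹ * (ε / 4) := by
                apply mul_le_mul_of_nonneg_left _ i0.le; linarith [z4.1]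
            _ ≤ 2 * (ε / 4) := by
                apply mul_le_mul_of_nonneg_right i1; positivity
        linarith
      · have h5 := Real.log_le_sub_one_of_pos hp
        linarith [z4.2]
    have := norm_integral_le_of_norm_le_const h2
    simp only [probReal_univ, mul_one] at this
    linarith
  have c7 : ∀ᶠ j in atTop, ∫ z, Real.log (w z.1.2) ∂(Lam m γ (kn m A n a b η (τ j)))
      = ∫ z, Real.log (w z.2) ∂γ := by
    filter_upwards [hgood] with j hθ
    obtain ⟨g1, g2, g3⟩ := good' hfin hA (hτ0 j) hc2 hθ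
    have m2 : Measurable fun z : M × M => Real.log (w z.2) := (hwm.comp measurable_snd).log
    conv_rhs => rw [← g2]
    rw [integral_map measurable_fst.aemeasurable m2.aestronglyMeasurable]
  -- a.e. bounds
  have hL : ∀ᶠ j in atTop, ∀ᵐ z ∂(Lam m γ (kn m A n a b η (τ j))),
      dist z.1.1 z.2 < η ∧ dist z.1.1 z.1.2 ≤ 2 * |R| ∧ dist z.2 z.1.2 ≤ 2 * |R| + η := by
    filter_upwards [hgood] with j hθ
    obtain ⟨g1, g2, g3⟩ := good' hfin hA (hτ0 j) hc2 hθ
    have : ∀ᵐ z ∂((Lam m γ (kn m A n a b η (τ j))).map Prod.fst),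
        z.1 ∈ Metric.ball p R ∧ z.2 ∈ Metric.ball p R := by
      rw [g2]
      filter_upwards [hball1, hball2] with z z1 z2 using ⟨z1, z2⟩
    filter_upwards [g3, ae_of_ae_map measurable_fst.aemeasurable this] with z z1 z2
    have h1 := Metric.mem_ball.1 z2.1
    have h2 := Metric.mem_ball.1 z2.2
    have t1 := dist_triangle z.2 z.1.1 z.1.2
    have t2 := dist_triangle z.1.1 p z.1.2
    rw [dist_comm z.2 z.1.1] at t1
    rw [dist_comm p z.1.2] at t2
    have := le_abs_self R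
    exact ⟨z1, by linarith, by linarith⟩
  -- (c5)
  have c5 : Tendsto (fun j => ∫ z, dist z.2 z.1.2 ^ 2 / 2 ∂(Lam m γ (kn m A n a b η (τ j))))
      atTop (𝓝 (∫ z, dist z.1 z.2 ^ 2 / 2 ∂γ)) := by
    have h0 : Tendsto (fun j => ∫ z, dist z.2 z.1.2 ^ 2 / 2 ∂(Lam m γ (kn m A n a b η (τ j)))
        - ∫ z, dist z.1 z.2 ^ 2 / 2 ∂γ) atTop (𝓝 0) := by
      refine small_of c3 fun ε hε => ?_
      set L : ℝ := 2 * |R| + η with hLd
      have hL0 : 0 < L := by have := abs_nonneg R; rw [hLd]; linarith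
      set ε2 : ℝ := ε / L with hε2
      have hε20 : 0 < ε2 := by positivity
      refine ⟨L * (2 / ε2), ?_⟩
      filter_upwards [hgood, hL] with j hθ hLj
      obtain ⟨g1, g2, g3⟩ := good' hfin hA (hτ0 j) hc2 hθ
      have i4 := int_G' hfin hA (hτ0 j) hc2 hθ
      have i1 : Integrable (fun z : (M × M) × M => dist z.2 z.1.2 ^ 2 / 2)
          (Lam m γ (kn m A n a b η (τ j))) := by
        refine Integrable.of_bound (by fun_prop) (L ^ 2 / 2) ?_
        filter_upwards [hLj] with z hz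
        rw [Real.norm_of_nonneg (by positivity)]
        have : 0 ≤ dist z.2 z.1.2 := dist_nonneg
        have := hz.2.2
        gcongr
      have i2 : Integrable (fun z : (M × M) × M => dist z.1.1 z.1.2 ^ 2 / 2)
          (Lam m γ (kn m A n a b η (τ j))) := by
        refine Integrable.of_bound (by fun_prop) (L ^ 2 / 2) ?_
        filter_upwards [hLj] with z hz
        rw [Real.norm_of_nonneg (by positivity)]
        have : 0 ≤ dist z.1.1 z.1.2 := dist_nonneg
        have h2 : dist z.1.1 z.1.2 ≤ L := by have := hz.2.1; rw [hLd]; linarith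
        gcongr
      have e1 : ∫ z, dist z.1 z.2 ^ 2 / 2 ∂γ
          = ∫ z, dist z.1.1 z.1.2 ^ 2 / 2 ∂(Lam m γ (kn m A n a b η (τ j))) := by
        conv_lhs => rw [← g2]
        rw [integral_map measurable_fst.aemeasurable (by fun_prop)]
      rw [e1, ← integral_sub i1 i2]
      have hb : ∀ᵐ z ∂(Lam m γ (kn m A n a b η (τ j))),
          ‖dist z.2 z.1.2 ^ 2 / 2 - dist z.1.1 z.1.2 ^ 2 / 2‖
            ≤ L * ε2 + L * (2 / ε2) * (dist z.1.1 z.2 ^ 2 / 2) := by
        filter_upwards [hLj] with z hz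
        obtain ⟨z1, z2, z3⟩ := hz
        set d := dist z.1.1 z.2 with hd
        have d0 : 0 ≤ d := dist_nonneg
        have h1 : |dist z.2 z.1.2 - dist z.1.1 z.1.2| ≤ d := by
          rw [hd, dist_comm z.1.1 z.2]
          exact abs_dist_sub_le _ _ _
        have h2 : |dist z.2 z.1.2 + dist z.1.1 z.1.2| ≤ 2 * L := by
          rw [abs_of_nonneg (by positivity)]
          rw [hLd]; linarith
        have h3 : dist z.2 z.1.2 ^ 2 / 2 - dist z.1.1 z.1.2 ^ 2 / 2
            = (dist z.2 z.1.2 - dist z.1.1 z.1.2) * (dist z.2 z.1.2 + dist z.1.1 z.1.2) / 2 := by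
          ring
        rw [h3, norm_div, norm_mul, Real.norm_eq_abs, Real.norm_eq_abs, Real.norm_eq_abs,
          abs_two]
        have h4 : |dist z.2 z.1.2 - dist z.1.1 z.1.2| * |dist z.2 z.1.2 + dist z.1.1 z.1.2|
            ≤ d * (2 * L) := mul_le_mul h1 h2 (abs_nonneg _) d0
        have h5 : d ≤ ε2 + d ^ 2 / ε2 := by
          rw [← sub_nonneg]
          have : ε2 + d ^ 2 / ε2 - d = ((ε2 - d / 2) ^ 2 + 3 / 4 * d ^ 2) / ε2 := by
            field_simp; ring
          rw [this]; positivity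
        calc |dist z.2 z.1.2 - dist z.1.1 z.1.2| * |dist z.2 z.1.2 + dist z.1.1 z.1.2| / 2
            ≤ L * d := by linarith
          _ ≤ L * (ε2 + d ^ 2 / ε2) := by gcongr
          _ = L * ε2 + L * (2 / ε2) * (d ^ 2 / 2) := by ring
      calc |∫ z, (dist z.2 z.1.2 ^ 2 / 2 - dist z.1.1 z.1.2 ^ 2 / 2)
            ∂(Lam m γ (kn m A n a b η (τ j)))|
          ≤ ∫ z, (L * ε2 + L * (2 / ε2) * (dist z.1.1 z.2 ^ 2 / 2))
            ∂(Lam m γ (kn m A n a b η (τ j))) := by
            rw [← Real.norm_eq_abs]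
            exact norm_integral_le_of_norm_le ((integrable_const _).add (i4.const_mul _)) hb
        _ = ε + L * (2 / ε2) * Gj m A n a b η γ (τ j) := by
            rw [integral_add (integrable_const _) (i4.const_mul _),
              integral_const_mul (L * (2 / ε2))]
            simp only [integral_const, probReal_univ, one_smul]
            have : L * ε2 = ε := by rw [hε2]; field_simp
            rw [this]
            rfl
    have h1 := h0.add_const (∫ z, dist z.1 z.2 ^ 2 / 2 ∂γ)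
    simpa using h1
  -- (c6)
  have c6 : ∀ f : M → ℝ, Continuous f → HasCompactSupport f →
      Tendsto (fun j => ∫ x, rt m A n a b η γ (τ j) x * f x ∂m) atTop
        (𝓝 (∫ x, r x * f x ∂m)) := by
    intro f hf1 hf2
    obtain ⟨B0, hB0⟩ := hf2.exists_bound_of_continuousOn hf1.continuousOn
    set B := |B0| with hB
    have hBf : ∀ x, |f x| ≤ B := by
      intro x
      by_cases h : x ∈ tsupport f
      · exact (hB0 x h).trans (le_abs_self B0)
      · rw [image_eq_zero_of_notMem_tsupport h, abs_zero]; exact abs_nonneg _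
    have hunif := hf2.uniformContinuous_of_continuous hf1
    have h0 : Tendsto (fun j => ∫ x, rt m A n a b η γ (τ j) x * f x ∂m
        - ∫ x, r x * f x ∂m) atTop (𝓝 0) := by
      refine small_of c3 fun ε hε => ?_
      obtain ⟨δ, hδ, hδf⟩ := Metric.uniformContinuous_iff.1 hunif ε hε
      refine ⟨4 * B / δ ^ 2, ?_⟩
      filter_upwards [hgood] with j hθ
      obtain ⟨g1, g2, g3⟩ := good' hfin hA (hτ0 j) hc2 hθ
      obtain ⟨r1, r2, r3, r4, r5, r6⟩ := rt_facts' (n := n) (a := a) (b := b) (η := η) hfin hA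
        (hτ0 j) hc2 hball1 hθ
      have i4 := int_G' hfin hA (hτ0 j) hc2 hθ
      have e1 : ∫ x, rt m A n a b η γ (τ j) x * f x ∂m
          = ∫ z, f z.2 ∂(Lam m γ (kn m A n a b η (τ j))) := by
        have h1 : ∫ x, f x ∂((Lam m γ (kn m A n a b η (τ j))).map Prod.snd)
            = ∫ z, f z.2 ∂(Lam m γ (kn m A n a b η (τ j))) :=
          integral_map measurable_snd.aemeasurable hf1.aestronglyMeasurable
        rw [← h1, r5, integral_withDensity_eq_integral_toReal_smul r1.ennreal_ofReal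
          (Eventually.of_forall fun x => ENNReal.ofReal_lt_top)]
        congr 1
        ext x
        rw [ENNReal.toReal_ofReal (r2 x), smul_eq_mul]
      have e2 : ∫ x, r x * f x ∂m
          = ∫ z, f z.1.1 ∂(Lam m γ (kn m A n a b η (τ j))) := by
        have h1 : ∫ x, f x ∂(γ.map Prod.fst) = ∫ z, f z.1 ∂γ :=
          integral_map measurable_fst.aemeasurable hf1.aestronglyMeasurable
        have h2 : ∫ z, f z.1 ∂((Lam m γ (kn m A n a b η (τ j))).map Prod.fst)
            = ∫ z, f z.1.1 ∂(Lam m γ (kn m A n a b η (τ j))) :=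
          integral_map measurable_fst.aemeasurable
            (hf1.measurable.comp measurable_fst).aestronglyMeasurable
        rw [← h2, g2, ← h1, hγ1, integral_withDensity_eq_integral_toReal_smul hr.ennreal_ofReal
          (Eventually.of_forall fun x => ENNReal.ofReal_lt_top)]
        congr 1
        ext x
        rw [ENNReal.toReal_ofReal (hr0 x), smul_eq_mul]
      have i1 : Integrable (fun z : (M × M) × M => f z.2) (Lam m γ (kn m A n a b η (τ j))) :=
        Integrable.of_bound (hf1.measurable.comp measurable_snd).aestronglyMeasurable B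
          (Eventually.of_forall fun z => hBf _)
      have i2 : Integrable (fun z : (M × M) × M => f z.1.1) (Lam m γ (kn m A n a b η (τ j))) :=
        Integrable.of_bound (hf1.measurable.comp (by fun_prop)).aestronglyMeasurable B
          (Eventually.of_forall fun z => hBf _)
      rw [e1, e2, ← integral_sub i1 i2]
      have hb : ∀ z : (M × M) × M, ‖f z.2 - f z.1.1‖
          ≤ ε + 4 * B / δ ^ 2 * (dist z.1.1 z.2 ^ 2 / 2) := by
        intro z
        have hB' : 0 ≤ B := abs_nonneg _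
        rcases lt_or_ge (dist z.2 z.1.1) δ with h | h
        · have h1 := hδf h
          rw [Real.dist_eq] at h1
          rw [Real.norm_eq_abs]
          have : 0 ≤ 4 * B / δ ^ 2 * (dist z.1.1 z.2 ^ 2 / 2) := by positivity
          linarith
        · have h1 : ‖f z.2 - f z.1.1‖ ≤ B + B :=
            (norm_sub_le _ _).trans (add_le_add (hBf _) (hBf _))
          have h2 : 1 ≤ dist z.1.1 z.2 ^ 2 / δ ^ 2 := by
            rw [dist_comm] at h
            rw [one_le_div (by positivity)]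
            gcongr
          have h3 : 4 * B / δ ^ 2 * (dist z.1.1 z.2 ^ 2 / 2)
              = 2 * B * (dist z.1.1 z.2 ^ 2 / δ ^ 2) := by ring
          rw [h3]
          nlinarith
      calc |∫ z, (f z.2 - f z.1.1) ∂(Lam m γ (kn m A n a b η (τ j)))|
          ≤ ∫ z, (ε + 4 * B / δ ^ 2 * (dist z.1.1 z.2 ^ 2 / 2))
            ∂(Lam m γ (kn m A n a b η (τ j))) := by
            rw [← Real.norm_eq_abs]
            exact norm_integral_le_of_norm_le ((integrable_const _).add (i4.const_mul _))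
              (Eventually.of_forall hb)
        _ = ε + 4 * B / δ ^ 2 * Gj m A n a b η γ (τ j) := by
            rw [integral_add (integrable_const _) (i4.const_mul _), integral_const_mul]
            simp only [integral_const, probReal_univ, one_smul]
            rfl
    have h1 := h0.add_const (∫ x, r x * f x ∂m)
    simpa using h1
  -- the sequence of entropies
  have hrR' : ∀ x, x ∉ Metric.ball p (R + η) → r x = 0 := fun x hx => hrR x fun h =>
    hx (Metric.ball_subset_ball (by linarith) h)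
  have hTj : Tendsto (fun j => τ j / lam) atTop (𝓝[>] 0) := by
    refine tendsto_nhdsWithin_iff.2 ⟨?_, Eventually.of_forall fun j => div_pos (hτ0 j) hlam⟩
    have := hτ.div_const lam
    simpa using this
  set X : ℕ → ℝ := fun j => (a (τ j / lam) - (τ j / lam)⁻¹)
      * ∫ z, dist z.2 z.1.2 ^ 2 / 2 ∂(Lam m γ (kn m A n a b η (τ j)))
      + b * (τ j / lam) - b * τ j + (n : ℝ) / 2 * (-Real.log lam)
      - a (τ j) * Gj m A n a b η γ (τ j)
      - ∫ z, Real.log (th m A n a b η (τ j) z.1.1) ∂(Lam m γ (kn m A n a b η (τ j))) with hX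
  have hXlim : Tendsto X atTop (𝓝 ((-K / 6) * ∫ z, dist z.1 z.2 ^ 2 / 2 ∂γ + b * (0 / lam) - b * 0
      + (n : ℝ) / 2 * (-Real.log lam) - n / 2 - ∫ z, Real.log (w z.1) ∂γ)) := by
    have ha2 : Tendsto (fun j => a (τ j / lam) - (τ j / lam)⁻¹) atTop (𝓝 (-K / 6)) := by
      have := ha.comp hTj
      refine this.congr fun j => ?_
      simp [Function.comp]
    exact (((((ha2.mul c5).add ((hτ.div_const lam).const_mul b)).sub (hτ.const_mul b)).add_const
      _).sub c2).sub c4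
  refine le_of_forall_pos_le_add fun ε' hε' => ?_
  set ε : ℝ := ε' / (1 / 2 + lam) with hε
  have hε0 : 0 < ε := by positivity
  have hev : ∀ᶠ j in atTop, (1 / 2) * (∫ x, r x * Real.log (r x) ∂m - ε
      - ∫ y, s y * Real.log (s y) ∂m) - lam * (a1 / 2 + ε) - ∫ z, Real.log (w z.2) ∂γ
      ≤ X j := by
    have hls := ent_lsc hfin hr hr0 hrC hrR' (r := fun j => rt m A n a b η γ (τ j)) (by
      filter_upwards [hgood] with j hθ
      obtain ⟨r1, r2, r3, r4, r5, r6⟩ := rt_facts' (n := n) (a := a) (b := b) (η := η) hfin hA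
        (hτ0 j) hc2 hball1 hθ
      exact ⟨r1, r2, ⟨_, r3⟩, r4⟩) c6 hε0
    filter_upwards [hgood, hls, hTj.eventually hS.s1, hS.s4 ε hε0, hL, c7] with j hθ h1 h2 h3 hLj
      h7
    have hT : 0 < τ j / lam := div_pos (hτ0 j) hlam
    have hS2 := S2w (n := n) (a := a) (b := b) (η := η) hfin hA (hτ0 j) hT hc2 hball1 hθ hwm hw0
      (fun x hx => ⟨by linarith [(hwc x hx).1], (hwc x hx).2.trans (by
        rw [inv_le_inv₀ hc hc2]; linarith)⟩) hs hs0 hsC hsR hγ2 hφ hψ hφD hψD h2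
    rw [h7] at hS2
    obtain ⟨g1, g2, g3⟩ := good' hfin hA (hτ0 j) hc2 hθ
    have hlog : Real.log (τ j / lam) - Real.log (τ j) = -Real.log lam := by
      rw [Real.log_div (hτ0 j).ne' hlam.ne']; ring
    rw [hlog] at hS2
    have i1 : Integrable (fun z : (M × M) × M => dist z.2 z.1.2 ^ 2 / 2 - φ z.2 - ψ z.1.2)
        (Lam m γ (kn m A n a b η (τ j))) := by
      have i1 : Integrable (fun z : (M × M) × M => dist z.2 z.1.2 ^ 2 / 2)
          (Lam m γ (kn m A n a b η (τ j))) := by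
        refine Integrable.of_bound (by fun_prop) ((2 * |R| + η) ^ 2 / 2) ?_
        filter_upwards [hLj] with z hz
        rw [Real.norm_of_nonneg (by positivity)]
        have : 0 ≤ dist z.2 z.1.2 := dist_nonneg
        have := hz.2.2
        gcongr
      exact (i1.sub (Integrable.of_bound (hφ.comp measurable_snd).aestronglyMeasurable D
        (Eventually.of_forall fun z => hφD _))).sub (Integrable.of_bound
          (hψ.comp (by fun_prop)).aestronglyMeasurable D (Eventually.of_forall fun z => hψD _))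
    have e1 : ∫ z, (dist z.2 z.1.2 ^ 2 / 2 - φ z.2 - ψ z.1.2) ∂(Lam m γ (kn m A n a b η (τ j)))
        ≤ τ j * (a1 / 2 + ε) := by
      rw [int_lam meas_kn (kn_nonneg hA (hτ0 j)) i1]
      exact h3
    have e2 : (τ j / lam)⁻¹ * ∫ z, (dist z.2 z.1.2 ^ 2 / 2 - φ z.2 - ψ z.1.2)
        ∂(Lam m γ (kn m A n a b η (τ j))) ≤ lam * (a1 / 2 + ε) := by
      calc (τ j / lam)⁻¹ * ∫ z, (dist z.2 z.1.2 ^ 2 / 2 - φ z.2 - ψ z.1.2)
          ∂(Lam m γ (kn m A n a b η (τ j))) ≤ (τ j / lam)⁻¹ * (τ j * (a1 / 2 + ε)) := by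
            apply mul_le_mul_of_nonneg_left e1 (inv_nonneg.2 hT.le)
        _ = lam * (a1 / 2 + ε) := by
            have := (hτ0 j).ne'
            field_simp
    simp only [hX]
    unfold Gj
    linarith
  have hfinal := ge_of_tendsto hXlim hev
  have h5 : ε * (1 / 2 + lam) = ε' := by rw [hε]; field_simp
  have h6 : (0 : ℝ) / lam = 0 := zero_div _
  rw [h6] at hfinal
  nlinarith

end lim

end Vale.Agent.P233.H883.EntW
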